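import Vale.Agent.Lib.H7Tingley.Poly

/-! Every polyhedral real Banach space (in the sense of Klee, of any dimension) has the
Mazur-Ulam property. -/

namespace Vale.Agent.Results.P084.PolyhedralMUP

open Vale.Agent.H7Tingley

/-- Let `X` be a real Banach space in which the closed unit ball of each finite-dimensional
subspace is a polytope (the convex hull of a finite set), that is, a polyhedral space in the
sense of Klee. Then every surjective isometry from the unit sphere of `X` onto the unit sphere
of an arbitrary real normed space `Y` is the restriction of a linear isometry of `X` onto `Y`. -/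
theorem result :
    ∀ (X : Type*) [NormedAddCommGroup X] [NormedSpace ℝ X] [CompleteSpace X],
      (∀ E : Submodule ℝ X, FiniteDimensional ℝ E →
        ∃ P : Set X, P.Finite ∧ Metric.closedBall (0 : X) 1 ∩ (E : Set X) = convexHull ℝ P) →
      ∀ (Y : Type*) [NormedAddCommGroup Y] [NormedSpace ℝ Y]
        (f : Metric.sphere (0 : X) 1 → Metric.sphere (0 : Y) 1),
        Function.Surjective f → Isometry f →
          ∃ T : X ≃ₗᵢ[ℝ] Y, ∀ x : Metric.sphere (0 : X) 1, T (x : X) = (f x : Y) := by
  intro X _ _ _ hX Y _ _ f hsurj hiso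
  classical
  have hR : RayLin X := rayLin_of_poly hX
  choose g hg using hsurj
  have hgf : ∀ x, g (f x) = x := fun x => hiso.injective (hg (f x))
  have hmemX : ∀ x : X, ‖x‖ = 1 → x ∈ Metric.sphere (0 : X) 1 := fun x hx => by
    rw [mem_sphere_zero_iff_norm]; exact hx
  have hmemY : ∀ y : Y, ‖y‖ = 1 → y ∈ Metric.sphere (0 : Y) 1 := fun y hy => by
    rw [mem_sphere_zero_iff_norm]; exact hy
  let F : SphIso X Y :=
    { f := fun x => if h : ‖x‖ = 1 then (f ⟨x, hmemX x h⟩ : Y) else 0
      g := fun y => if h : ‖y‖ = 1 then (g ⟨y, hmemY y h⟩ : X) else 0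
      nf := fun x hx => by
        rw [dif_pos hx]
        exact mem_sphere_zero_iff_norm.mp (f ⟨x, hmemX x hx⟩).2
      ng := fun y hy => by
        rw [dif_pos hy]
        exact mem_sphere_zero_iff_norm.mp (g ⟨y, hmemY y hy⟩).2
      gf := fun x hx => by
        have h1 : ‖(f ⟨x, hmemX x hx⟩ : Y)‖ = 1 :=
          mem_sphere_zero_iff_norm.mp (f ⟨x, hmemX x hx⟩).2
        rw [dif_pos hx, dif_pos h1]
        have h2 := hgf ⟨x, hmemX x hx⟩
        exact congrArg Subtype.val h2
      fg := fun y hy => by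
        have h1 : ‖(g ⟨y, hmemY y hy⟩ : X)‖ = 1 :=
          mem_sphere_zero_iff_norm.mp (g ⟨y, hmemY y hy⟩).2
        rw [dif_pos hy, dif_pos h1]
        have h2 := hg ⟨y, hmemY y hy⟩
        exact congrArg Subtype.val h2
      iso := fun x x' hx hx' => by
        rw [dif_pos hx, dif_pos hx', ← dist_eq_norm, ← dist_eq_norm]
        exact hiso.dist_eq ⟨x, hmemX x hx⟩ ⟨x', hmemX x' hx'⟩ }
  obtain ⟨T, hT⟩ := exists_isometryEquiv hR F
  refine ⟨T, fun x => ?_⟩
  have hx : ‖(x : X)‖ = 1 := mem_sphere_zero_iff_norm.mp x.2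
  rw [hT x hx]
  change (if h : ‖(x : X)‖ = 1 then (f ⟨x, hmemX x h⟩ : Y) else 0) = (f x : Y)
  rw [dif_pos hx]

end Vale.Agent.Results.P084.PolyhedralMUP
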